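import Vale.Agent.Lib.P328.Tables

open P328

/-- Uniform spectral gap for three-row contingency tables. Fix any number `n` of columns and any
margins `r : Fin 3 → ℕ`, `c : Fin n → ℕ`, and let `tables3 r c` be the set of `3 × n` tables over
`ℕ` with these margins. The Markov chain that picks a row `a` uniformly at random, keeps it, and
resamples the two other rows uniformly among all tables with that row `a`, has transition operator
`(1 / 3) * ∑ a, rowAvg r c a`, and its spectral gap is at least `1 / 256`: for every `f` of mean
zero on the tables, the Dirichlet form is at least `(1 / 256) * ∑ f ^ 2`. The constant does not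
depend on `n` or on the margins. -/
theorem Vale.Agent.Results.P328.A_three_rows_gap.result {n : ℕ} (r : Fin 3 → ℕ) (c : Fin n → ℕ)
    (f : (Fin 3 → Fin n → ℕ) → ℝ) (hf : ∑ T ∈ tables3 r c, f T = 0) :
    (1 / 256 : ℝ) * ∑ T ∈ tables3 r c, f T ^ 2
      ≤ (1 / 3 : ℝ) * ∑ a : Fin 3, ∑ T ∈ tables3 r c, (f T - rowAvg r c a f T) * f T := by
  have h := three_row_gap r c f hf
  linarith
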